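import Mathlib

open scoped ContDiff

namespace Vale.Agent.P252h3

/-- The Hessian matrix of `u : ℝⁿ → ℝ` at `x`, in the standard basis. -/
noncomputable def hess {n : ℕ} (u : EuclideanSpace ℝ (Fin n) → ℝ) (x : EuclideanSpace ℝ (Fin n)) :
    Matrix (Fin n) (Fin n) ℝ :=
  Matrix.of fun i j =>
    fderiv ℝ (fderiv ℝ u) x (EuclideanSpace.single i 1) (EuclideanSpace.single j 1)

/-- The function `w = (det D²u) ^ (-(n+1)/(n+2))`. -/
noncomputable def amW {n : ℕ} (u : EuclideanSpace ℝ (Fin n) → ℝ) (x : EuclideanSpace ℝ (Fin n)) : ℝ :=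
  (hess u x).det ^ (-((n : ℝ) + 1) / ((n : ℝ) + 2))

/-- The affine maximal equation `∑ U^{ij} ∂_{ij} w = 0` at every point of `ℝⁿ`, where
`U^{ij} = det (D²u) * ((D²u)⁻¹)_{ij}`. -/
def IsAffineMaximal {n : ℕ} (u : EuclideanSpace ℝ (Fin n) → ℝ) : Prop :=
  ∀ x, ∑ i, ∑ j, (hess u x).det * (hess u x)⁻¹ i j * hess (amW u) x i j = 0

end Vale.Agent.P252h3
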