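import Vale.Agent.P252h3.Sep
import Vale.Agent.P100h3.RadialLap

open scoped ContDiff
open Filter Topology

namespace Vale.Agent.P252h3

variable {n : ℕ}

/-- The second derivative of a smooth radial function as a bilinear form. -/
theorem snd_radial {v : EE n → ℝ} {p : ℝ → ℝ} (hv : ContDiff ℝ ∞ v) (hp : ContDiff ℝ ∞ p)
    (hrad : ∀ y, v y = p ‖y‖) {y : EE n} (hy : y ≠ 0) (h k : EE n) :
    fderiv ℝ (fderiv ℝ v) y h k =
      deriv p ‖y‖ / ‖y‖ * inner ℝ h k +
        (deriv (deriv p) ‖y‖ - deriv p ‖y‖ / ‖y‖) / ‖y‖ ^ 2 * (inner ℝ y h * inner ℝ y k) := by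
  have hd1 : Differentiable ℝ p := hp.differentiable (by simp)
  have hd2 : Differentiable ℝ (deriv p) := (deriv_contDiff hp).differentiable (by simp)
  have hr : 0 < ‖y‖ := norm_pos_iff.mpr hy
  have h2 : ContDiffAt ℝ 2 v y := (hv.of_le (by norm_cast)).contDiffAt
  set α : ℝ := deriv p ‖y‖ / ‖y‖ with hα
  set c : ℝ := (deriv (deriv p) ‖y‖ - deriv p ‖y‖ / ‖y‖) / ‖y‖ ^ 2 with hc
  set B := fderiv ℝ (fderiv ℝ v) y with hB
  -- unit vectors
  have hunit : ∀ e : EE n, ‖e‖ = 1 → B e e = α + c * (inner ℝ y e) ^ 2 := by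
    intro e he
    have h1 := Vale.Agent.P100h3.deriv_deriv_line h2 e
    have h3 : (fun t : ℝ => v (y + t • e)) = fun t => p ‖y + t • e‖ := by
      funext t; exact hrad _
    rw [h3, Vale.Agent.P100h3.radial_line (F := deriv p) hy he (fun s _ => (hd1 s).hasDerivAt)
      (hd2 ‖y‖).hasDerivAt] at h1
    rw [← h1, hα, hc]
    field_simp
    ring
  -- general vectors
  have hquad : ∀ z : EE n, B z z = α * ‖z‖ ^ 2 + c * (inner ℝ y z) ^ 2 := by
    intro z
    by_cases hz : z = 0
    · subst hz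
      simp
    · have hzn : 0 < ‖z‖ := norm_pos_iff.mpr hz
      have he : ‖(‖z‖⁻¹ • z)‖ = 1 := by
        rw [norm_smul, norm_inv, norm_norm]
        field_simp
      have h3 := hunit _ he
      have h4 : z = ‖z‖ • (‖z‖⁻¹ • z) := by
        rw [smul_smul, mul_inv_cancel₀ hzn.ne', one_smul]
      have h5 : B z z = ‖z‖ ^ 2 * B (‖z‖⁻¹ • z) (‖z‖⁻¹ • z) := by
        conv_lhs => rw [h4]
        simp only [map_smul, ContinuousLinearMap.smul_apply, smul_eq_mul, inv_smul_smul₀ hzn.ne']
        ring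
      rw [h5, h3, inner_smul_right]
      field_simp
  have hsymm : B h k = B k h := by
    have h6 : IsSymmSndFDerivAt ℝ v y := h2.isSymmSndFDerivAt (by simp)
    exact h6 h k
  have hexp : B (h + k) (h + k) = B h h + B h k + B k h + B k k := by
    simp only [map_add, ContinuousLinearMap.add_apply]
    ring
  have h7 := hquad (h + k)
  have h8 := hquad h
  have h9 := hquad k
  rw [norm_add_sq_real, inner_add_right] at h7
  have h10 : 2 * B h k = 2 * (α * inner ℝ h k + c * (inner ℝ y h * inner ℝ y k)) := by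
    rw [hexp, h8, h9, ← hsymm] at h7
    linear_combination h7
  linarith

theorem hess_radial_entry {v : EE n → ℝ} {p : ℝ → ℝ} (hv : ContDiff ℝ ∞ v) (hp : ContDiff ℝ ∞ p)
    (hrad : ∀ y, v y = p ‖y‖) {y : EE n} (hy : y ≠ 0) (i j : Fin n) :
    hess v y i j = deriv p ‖y‖ / ‖y‖ * (if i = j then 1 else 0) +
      (deriv (deriv p) ‖y‖ - deriv p ‖y‖ / ‖y‖) / ‖y‖ ^ 2 * (y i * y j) := by
  simp only [hess, Matrix.of_apply]
  rw [snd_radial hv hp hrad hy]
  congr 2
  · rw [EuclideanSpace.inner_single_left]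
    by_cases hij : i = j
    · subst hij; simp
    · have : j ≠ i := fun h => hij h.symm
      simp [hij, this]
  · rw [EuclideanSpace.inner_single_right, EuclideanSpace.inner_single_right]
    simp

theorem det_radial {y : EE n} {α c : ℝ} (hn : 1 ≤ n) (hα : α ≠ 0) :
    (Matrix.of fun i j : Fin n => α * (if i = j then 1 else 0) + c * (y i * y j)).det =
      α ^ (n - 1) * (α + c * ‖y‖ ^ 2) := by
  have hsum : (fun i => y i) ⬝ᵥ (fun i => (c / α) * y i) = (c / α) * ‖y‖ ^ 2 := by
    rw [EuclideanSpace.norm_sq_eq]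
    simp only [dotProduct, Real.norm_eq_abs, sq_abs, Finset.mul_sum]
    exact Finset.sum_congr rfl fun i _ => by ring
  have hM : (Matrix.of fun i j : Fin n => α * (if i = j then 1 else 0) + c * (y i * y j)) =
      α • (1 + Matrix.replicateCol Unit (fun i => (c / α) * y i) *
        Matrix.replicateRow Unit (fun i => y i)) := by
    ext i j
    simp only [Matrix.of_apply, Matrix.smul_apply, Matrix.add_apply, Matrix.one_apply,
      Matrix.mul_apply, Matrix.replicateCol_apply, Matrix.replicateRow_apply, smul_eq_mul]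
    simp only [Finset.univ_unique, Finset.sum_singleton]
    field_simp
  rw [hM, Matrix.det_smul, Matrix.det_one_add_replicateCol_mul_replicateRow, hsum,
    Fintype.card_fin]
  obtain ⟨m, rfl⟩ : ∃ m, n = m + 1 := ⟨n - 1, by omega⟩
  simp only [Nat.add_sub_cancel]
  rw [pow_succ]
  field_simp

end Vale.Agent.P252h3
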