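import Vale.Agent.P252h3.RadHess

open scoped ContDiff
open Filter Topology

namespace Vale.Agent.P252h3

variable {n : ℕ}

theorem amW_smooth {u : EE n → ℝ} (hu : ContDiff ℝ ∞ u) (hpd : ∀ x, (hess u x).PosDef) :
    ContDiff ℝ ∞ (amW u) := by
  have h1 : ContDiff ℝ ∞ (fderiv ℝ u) := hu.fderiv_right (by norm_cast)
  have h2 : ContDiff ℝ ∞ (fderiv ℝ (fderiv ℝ u)) := h1.fderiv_right (by norm_cast)
  have hE : ∀ i j, ContDiff ℝ ∞ (fun y => hess u y i j) := by
    intro i j
    simp only [hess, Matrix.of_apply]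
    exact (h2.clm_apply contDiff_const).clm_apply contDiff_const
  have hdet : ContDiff ℝ ∞ (fun y => (hess u y).det) := by
    simp only [Matrix.det_apply]
    refine ContDiff.sum fun σ _ => ContDiff.const_smul _ ?_
    exact contDiff_prod fun i _ => hE (σ i) i
  exact hdet.rpow_const_of_ne fun y => (hpd y).det_pos.ne'

theorem const_on_pos {h : ℝ → ℝ} (hd : Differentiable ℝ h) (h0 : ∀ r, 0 < r → deriv h r = 0)
    {r : ℝ} (hr : 0 < r) : h r = h 0 := by
  obtain ⟨ξ, hξ, hs⟩ := exists_deriv_eq_slope h hr hd.continuous.continuousOn hd.differentiableOn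
  rw [h0 ξ hξ.1, sub_zero, eq_div_iff hr.ne'] at hs
  linarith

/-- Axis entries of the Hessian of a smooth radial function. -/
theorem axis_entry {v : EE n → ℝ} {p : ℝ → ℝ} (hv : ContDiff ℝ ∞ v) (hp : ContDiff ℝ ∞ p)
    (hrad : ∀ y, v y = p ‖y‖) (i₀ : Fin n) {r : ℝ} (hr : 0 < r) (i j : Fin n) :
    hess v (r • EuclideanSpace.single i₀ (1 : ℝ)) i j =
      if i = j then (if i = i₀ then deriv (deriv p) r else deriv p r / r) else 0 := by
  have hnorm : ‖r • (EuclideanSpace.single i₀ (1 : ℝ) : EE n)‖ = r := by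
    rw [norm_smul, EuclideanSpace.norm_single]
    simp [abs_of_pos hr]
  have hne : r • (EuclideanSpace.single i₀ (1 : ℝ) : EE n) ≠ 0 := by
    rw [← norm_pos_iff, hnorm]; exact hr
  rw [hess_radial_entry hv hp hrad hne, hnorm]
  have hcoord : ∀ k, (r • (EuclideanSpace.single i₀ (1 : ℝ) : EE n)) k = if k = i₀ then r else 0 := by
    intro k
    by_cases hk : k = i₀
    · subst hk; simp
    · simp [hk]
  rw [hcoord, hcoord]
  by_cases hij : i = j
  · subst hij
    by_cases hi : i = i₀
    · simp only [hi, if_true]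
      field_simp
      ring
    · simp only [hi, if_true, if_false]
      ring
  · by_cases hi : i = i₀
    · have hj : j ≠ i₀ := fun h => hij (hi.trans h.symm)
      simp [hij, hj]
    · simp [hij, hi]

/-- The reduced equation on the axis. -/
theorem axis_reduced {u w : EE n → ℝ} {f W : ℝ → ℝ} (hn : 2 ≤ n)
    (hu : ContDiff ℝ ∞ u) (hf : ContDiff ℝ ∞ f) (hw : ContDiff ℝ ∞ w) (hW : ContDiff ℝ ∞ W)
    (hur : ∀ y, u y = f ‖y‖) (hwr : ∀ y, w y = W ‖y‖) (hwdef : w = amW u)
    (hpd : ∀ x, (hess u x).PosDef)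
    (ham : IsAffineMaximal u) (i₀ : Fin n) {r : ℝ} (hr : 0 < r) :
    0 < deriv (deriv f) r ∧ 0 < deriv f r ∧
    deriv (deriv W) r / deriv (deriv f) r + ((n - 1 : ℕ) : ℝ) * (deriv W r / deriv f r) = 0 := by
  set x : EE n := r • EuclideanSpace.single i₀ (1 : ℝ) with hx
  set d : Fin n → ℝ := fun i => if i = i₀ then deriv (deriv f) r else deriv f r / r with hd
  have hdiag : hess u x = Matrix.diagonal d := by
    ext i j
    rw [hx, axis_entry hu hf hur i₀ hr i j, Matrix.diagonal_apply]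
  have hdpos : ∀ i, 0 < d i := by
    have h1 := hpd x
    rw [hdiag, Matrix.posDef_diagonal_iff] at h1
    exact h1
  have hf2 : 0 < deriv (deriv f) r := by
    have := hdpos i₀
    simpa [hd] using this
  obtain ⟨i₁, hi₁⟩ : ∃ i₁ : Fin n, i₁ ≠ i₀ := by
    have : Nontrivial (Fin n) := Fin.nontrivial_iff_two_le.mpr hn
    exact exists_ne i₀
  have hf1' : 0 < deriv f r / r := by
    have := hdpos i₁
    simpa [hd, hi₁] using this
  have hf1 : 0 < deriv f r := by
    have := mul_pos hf1' hr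
    rwa [div_mul_cancel₀ _ hr.ne'] at this
  refine ⟨hf2, hf1, ?_⟩
  have hinv : (Matrix.diagonal d)⁻¹ = Matrix.diagonal (fun k => (d k)⁻¹) := by
    apply Matrix.inv_eq_right_inv
    rw [Matrix.diagonal_mul_diagonal, ← Matrix.diagonal_one]
    congr 1
    funext k
    exact mul_inv_cancel₀ (hdpos k).ne'
  have hmain := ham x
  rw [hdiag, hinv, ← hwdef] at hmain
  have hinner : ∀ i, ∑ j, (Matrix.diagonal d).det * (Matrix.diagonal (fun k => (d k)⁻¹)) i j *
      hess w x i j = (Matrix.diagonal d).det * ((d i)⁻¹ *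
        (if i = i₀ then deriv (deriv W) r else deriv W r / r)) := by
    intro i
    rw [Finset.sum_eq_single i]
    · rw [hx, axis_entry hw hW hwr i₀ hr i i]
      simp only [if_true, Matrix.diagonal_apply_eq]
      ring
    · intro j _ hj
      simp [hj.symm]
    · intro h
      exact absurd (Finset.mem_univ i) h
  simp only [hinner] at hmain
  rw [← Finset.mul_sum, Matrix.det_diagonal] at hmain
  have hprod : 0 < ∏ k, d k := Finset.prod_pos fun k _ => hdpos k
  have hs := (mul_eq_zero.mp hmain).resolve_left hprod.ne'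
  rw [← Finset.add_sum_erase _ _ (Finset.mem_univ i₀)] at hs
  have herase : ∑ i ∈ Finset.univ.erase i₀, (d i)⁻¹ *
      (if i = i₀ then deriv (deriv W) r else deriv W r / r) =
      ((n - 1 : ℕ) : ℝ) * (deriv W r / deriv f r) := by
    have h1 : ∀ i ∈ Finset.univ.erase i₀, (d i)⁻¹ *
        (if i = i₀ then deriv (deriv W) r else deriv W r / r) = deriv W r / deriv f r := by
      intro i hi
      have hne : i ≠ i₀ := Finset.ne_of_mem_erase hi
      simp only [hd, hne, if_false]
      field_simp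
    rw [Finset.sum_congr rfl h1, Finset.sum_const, Finset.card_erase_of_mem (Finset.mem_univ i₀),
      Finset.card_univ, Fintype.card_fin, nsmul_eq_mul]
  rw [herase] at hs
  simp only [hd, if_true] at hs
  rw [← hs]
  field_simp

/-- A smooth radial entire solution of the affine maximal equation with positive definite Hessian
is a quadratic polynomial. -/
theorem radial_quadratic (hn : 2 ≤ n) {u : EE n → ℝ} (hu : ContDiff ℝ ∞ u)
    (hrad : ∀ x y, ‖x‖ = ‖y‖ → u x = u y)
    (hpd : ∀ x, (hess u x).PosDef) (ham : IsAffineMaximal u) :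
    ∃ a c : ℝ, 0 < a ∧ ∀ x, u x = a / 2 * ‖x‖ ^ 2 + c := by
  let i₀ : Fin n := ⟨0, by omega⟩
  obtain ⟨e, he⟩ : ∃ e : EE n, e = EuclideanSpace.single i₀ (1 : ℝ) := ⟨_, rfl⟩
  have hen : ‖e‖ = 1 := by rw [he, EuclideanSpace.norm_single]; simp
  have hnorm : ∀ r : ℝ, 0 ≤ r → ‖r • e‖ = r := fun r hr => by
    rw [norm_smul, hen, mul_one, Real.norm_of_nonneg hr]
  have hline : ContDiff ℝ ∞ (fun t : ℝ => t • e) := contDiff_id.smul contDiff_const
  obtain ⟨f, hfdef⟩ : ∃ f : ℝ → ℝ, f = fun t => u (t • e) := ⟨_, rfl⟩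
  have hf : ContDiff ℝ ∞ f := by rw [hfdef]; exact hu.comp hline
  have hur : ∀ y, u y = f ‖y‖ := fun y => by
    rw [hfdef]
    exact hrad y (‖y‖ • e) (hnorm _ (norm_nonneg y)).symm
  have hw : ContDiff ℝ ∞ (amW u) := amW_smooth hu hpd
  obtain ⟨W, hWdef⟩ : ∃ W : ℝ → ℝ, W = fun t => amW u (t • e) := ⟨_, rfl⟩
  have hW : ContDiff ℝ ∞ W := by rw [hWdef]; exact hw.comp hline
  obtain ⟨E, hE⟩ : ∃ E : ℝ, E = -((n : ℝ) + 1) / ((n : ℝ) + 2) := ⟨_, rfl⟩
  have hEne : E ≠ 0 := by
    rw [hE]
    have : (0 : ℝ) ≤ (n : ℝ) := Nat.cast_nonneg n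
    exact div_ne_zero (by linarith) (by linarith)
  -- positivity on the axis
  have hpos0 : ∀ r, 0 < r → 0 < deriv (deriv f) r ∧ 0 < deriv f r / r := by
    intro r hr
    have h1 := hpd (r • EuclideanSpace.single i₀ (1 : ℝ))
    have hdiag : hess u (r • EuclideanSpace.single i₀ (1 : ℝ)) =
        Matrix.diagonal (fun i => if i = i₀ then deriv (deriv f) r else deriv f r / r) := by
      ext i j
      rw [axis_entry hu hf hur i₀ hr i j, Matrix.diagonal_apply]
    rw [hdiag, Matrix.posDef_diagonal_iff] at h1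
    obtain ⟨i₁, hi₁⟩ : ∃ i₁ : Fin n, i₁ ≠ i₀ := by
      have : Nontrivial (Fin n) := Fin.nontrivial_iff_two_le.mpr hn
      exact exists_ne i₀
    have h2 := h1 i₀
    have h3 := h1 i₁
    simp only [if_true] at h2
    simp only [hi₁, if_false] at h3
    exact ⟨h2, h3⟩
  -- `amW u` is radial
  have hdet : ∀ y : EE n, y ≠ 0 → (hess u y).det =
      (deriv f ‖y‖ / ‖y‖) ^ (n - 1) * deriv (deriv f) ‖y‖ := by
    intro y hy
    have hyn : 0 < ‖y‖ := norm_pos_iff.mpr hy
    have hα := (hpos0 ‖y‖ hyn).2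
    have hM : hess u y = Matrix.of fun i j : Fin n => (deriv f ‖y‖ / ‖y‖) * (if i = j then 1 else 0) +
        ((deriv (deriv f) ‖y‖ - deriv f ‖y‖ / ‖y‖) / ‖y‖ ^ 2) * (y i * y j) := by
      ext i j
      rw [hess_radial_entry hu hf hur hy i j]
      rfl
    rw [hM, det_radial (by omega) hα.ne']
    congr 1
    field_simp
    ring
  have hwr : ∀ y, amW u y = W ‖y‖ := by
    intro y
    rw [hWdef]
    by_cases hy : y = 0
    · subst hy; simp
    · have hyn : 0 < ‖y‖ := norm_pos_iff.mpr hy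
      have hne : ‖y‖ • e ≠ 0 := by
        rw [← norm_pos_iff, hnorm _ hyn.le]; exact hyn
      simp only [amW]
      rw [hdet y hy, hdet _ hne, hnorm _ hyn.le]
  have hred := fun (r : ℝ) (hr : 0 < r) =>
    axis_reduced hn hu hf hw hW hur hwr rfl hpd ham i₀ hr
  obtain ⟨m, hm⟩ : ∃ m : ℕ, m = n - 1 := ⟨_, rfl⟩
  have hm1 : 1 ≤ m := by omega
  rw [← hm] at hred hdet
  -- `f' (0) = 0`
  have hf0 : deriv f 0 = 0 := by
    have heven : (fun t => f (-t)) = f := by
      funext t
      rw [hfdef]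
      refine hrad _ _ ?_
      rw [norm_smul, norm_smul, norm_neg]
    have h1 : deriv (fun t => f (-t)) 0 = - deriv f (-0) := deriv_comp_neg f 0
    rw [heven] at h1
    simp only [neg_zero] at h1
    linarith
  have hd1 : Differentiable ℝ f := hf.differentiable (by simp)
  have hd2 : Differentiable ℝ (deriv f) := (deriv_contDiff hf).differentiable (by simp)
  have hdW1 : Differentiable ℝ W := hW.differentiable (by simp)
  have hdW2 : Differentiable ℝ (deriv W) := (deriv_contDiff hW).differentiable (by simp)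
  -- `f'^m W'` is constant
  have hY : ∀ r, 0 < r → deriv f r ^ m * deriv W r = 0 := by
    intro r hr
    have hdiff : Differentiable ℝ (fun s => deriv f s ^ m * deriv W s) :=
      (hd2.pow m).mul hdW2
    have h0 : ∀ s, 0 < s → deriv (fun s => deriv f s ^ m * deriv W s) s = 0 := by
      intro s hs
      obtain ⟨hf2, hf1, heq⟩ := hred s hs
      have h1 : HasDerivAt (fun s => deriv f s ^ m * deriv W s)
          ((m : ℝ) * deriv f s ^ (m - 1) * deriv (deriv f) s * deriv W s
            + deriv f s ^ m * deriv (deriv W) s) s :=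
        ((hd2 s).hasDerivAt.pow m).mul (hdW2 s).hasDerivAt
      rw [h1.deriv]
      have h2 : deriv f s ^ m = deriv f s ^ (m - 1) * deriv f s := by
        rw [← pow_succ]; congr 1; omega
      have h3 : deriv (deriv W) s = - ((m : ℝ) * (deriv W s / deriv f s)) * deriv (deriv f) s := by
        have h4 : deriv (deriv W) s / deriv (deriv f) s =
            - ((m : ℝ) * (deriv W s / deriv f s)) := by linarith
        rw [← h4]; field_simp
      rw [h3, h2]
      field_simp
      ring
    have h5 := const_on_pos hdiff h0 hr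
    simp only [hf0] at h5
    rw [h5, zero_pow (by omega), zero_mul]
  have hW1 : ∀ r, 0 < r → deriv W r = 0 := by
    intro r hr
    have h1 := hY r hr
    have h2 := (hred r hr).2.1
    have h3 : deriv f r ^ m ≠ 0 := pow_ne_zero _ h2.ne'
    exact (mul_eq_zero.mp h1).resolve_left h3
  -- `det D²u` is constant along the axis
  have hDconst : ∀ r, 0 < r → (deriv f r / r) ^ m * deriv (deriv f) r =
      (deriv f 1 / 1) ^ m * deriv (deriv f) 1 := by
    intro r hr
    have h1 : W r = W 1 := by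
      rw [const_on_pos hdW1 hW1 hr, const_on_pos hdW1 hW1 one_pos]
    have hval : ∀ s, 0 < s → W s = ((deriv f s / s) ^ m * deriv (deriv f) s) ^ E := by
      intro s hs
      have hne : s • e ≠ 0 := by
        rw [← norm_pos_iff, hnorm _ hs.le]; exact hs
      rw [hWdef]
      simp only [amW]
      rw [hdet _ hne, hnorm _ hs.le, hE]
    rw [hval r hr, hval 1 one_pos] at h1
    have hpos : ∀ s, 0 < s → 0 < (deriv f s / s) ^ m * deriv (deriv f) s := fun s hs =>
      mul_pos (pow_pos (hpos0 s hs).2 m) (hpos0 s hs).1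
    have h2 := Real.rpow_rpow_inv (hpos r hr).le hEne
    have h3 := Real.rpow_rpow_inv (hpos 1 one_pos).le hEne
    rw [← h2, ← h3, h1]
  obtain ⟨d, hd⟩ : ∃ d : ℝ, d = (deriv f 1 / 1) ^ m * deriv (deriv f) 1 := ⟨_, rfl⟩
  rw [← hd] at hDconst
  -- `f'^(m+1) = d r^(m+1)`
  have hZ : ∀ r, 0 < r → deriv f r ^ (m + 1) = d * r ^ (m + 1) := by
    intro r hr
    have hdiff : Differentiable ℝ (fun s => deriv f s ^ (m + 1) - d * s ^ (m + 1)) :=
      (hd2.pow _).sub ((differentiable_const d).mul (differentiable_id.pow _))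
    have h0 : ∀ s, 0 < s → deriv (fun s => deriv f s ^ (m + 1) - d * s ^ (m + 1)) s = 0 := by
      intro s hs
      have h1 : HasDerivAt (fun s : ℝ => s ^ (m + 1)) (((m + 1 : ℕ) : ℝ) * s ^ m) s := by
        simpa using hasDerivAt_pow (m + 1) s
      have h2 : HasDerivAt (fun s => deriv f s ^ (m + 1) - d * s ^ (m + 1))
          (((m + 1 : ℕ) : ℝ) * deriv f s ^ m * deriv (deriv f) s - d * (((m + 1 : ℕ) : ℝ) * s ^ m)) s :=
        ((hd2 s).hasDerivAt.pow (m + 1)).sub (h1.const_mul d)
      rw [h2.deriv, ← hDconst s hs, div_pow]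
      have hsm : s ^ m ≠ 0 := pow_ne_zero _ hs.ne'
      have h7 : deriv f s ^ m / s ^ m * deriv (deriv f) s * (((m + 1 : ℕ) : ℝ) * s ^ m) =
          ((m + 1 : ℕ) : ℝ) * deriv f s ^ m * deriv (deriv f) s := by
        field_simp
      rw [h7]
      ring
    have h5 := const_on_pos hdiff h0 hr
    simp only [hf0] at h5
    have h6 : (0 : ℝ) ^ (m + 1) = 0 := zero_pow (by omega)
    rw [h6, mul_zero, sub_zero] at h5
    linarith
  -- `f' = a r`
  have ha : 0 < deriv f 1 := by
    have := (hpos0 1 one_pos).2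
    simpa using this
  have hlin : ∀ r, 0 < r → deriv f r = deriv f 1 * r := by
    intro r hr
    have h1 := hZ r hr
    have h2 := hZ 1 one_pos
    have h3 : (deriv f r / r) ^ (m + 1) = deriv f 1 ^ (m + 1) := by
      rw [div_pow, h1, h2]
      field_simp
      simp
    have h4 := (pow_left_inj₀ (hpos0 r hr).2.le ha.le (by omega)).mp h3
    rw [div_eq_iff hr.ne'] at h4
    exact h4
  refine ⟨deriv f 1, f 0, ha, fun x => ?_⟩
  rw [hur x]
  by_cases hx : x = 0
  · subst hx; simp
  have hxn : 0 < ‖x‖ := norm_pos_iff.mpr hx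
  have hdiff : Differentiable ℝ (fun s => f s - deriv f 1 / 2 * s ^ 2) :=
    hd1.sub ((differentiable_const _).mul (differentiable_id.pow 2))
  have h0 : ∀ s, 0 < s → deriv (fun s => f s - deriv f 1 / 2 * s ^ 2) s = 0 := by
    intro s hs
    have h1 : HasDerivAt (fun s : ℝ => s ^ 2) (2 * s) s := by
      simpa using hasDerivAt_pow 2 s
    have h2 : HasDerivAt (fun s => f s - deriv f 1 / 2 * s ^ 2)
        (deriv f s - deriv f 1 / 2 * (2 * s)) s :=
      (hd1 s).hasDerivAt.sub (h1.const_mul _)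
    rw [h2.deriv, hlin s hs]
    ring
  have h5 := const_on_pos hdiff h0 hxn
  simp only [ne_eq, OfNat.ofNat_ne_zero, not_false_eq_true, zero_pow, mul_zero, sub_zero] at h5
  linarith

end Vale.Agent.P252h3
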