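import Vale.Agent.P252h3.Defs
import Vale.Agent.P100h3.Core

open scoped ContDiff
open Filter Topology

namespace Vale.Agent.P252h3

variable {n : ℕ}

abbrev EE (n : ℕ) := EuclideanSpace ℝ (Fin n)

/-- The derivative of a separable function. -/
theorem sep_fderiv {f : Fin n → ℝ → ℝ} (hf : ∀ k, ContDiff ℝ ∞ (f k)) (y : EE n) :
    fderiv ℝ (fun x : EE n => ∑ k, f k (x k)) y =
      ∑ k, (deriv (f k) (y k)) • (EuclideanSpace.proj k : EE n →L[ℝ] ℝ) := by
  have hk : ∀ k, HasFDerivAt (fun x : EE n => f k (x k))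
      ((deriv (f k) (y k)) • (EuclideanSpace.proj k : EE n →L[ℝ] ℝ)) y := by
    intro k
    have h1 : HasDerivAt (f k) (deriv (f k) (y k)) (y k) :=
      ((hf k).differentiable (by simp) (y k)).hasDerivAt
    have h2 : HasFDerivAt (fun x : EE n => x k) (EuclideanSpace.proj k : EE n →L[ℝ] ℝ) y :=
      (EuclideanSpace.proj k : EE n →L[ℝ] ℝ).hasFDerivAt
    exact h1.comp_hasFDerivAt y h2
  exact (HasFDerivAt.fun_sum fun k _ => hk k).fderiv

theorem deriv_contDiff {g : ℝ → ℝ} (hg : ContDiff ℝ ∞ g) : ContDiff ℝ ∞ (deriv g) :=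
  (contDiff_infty_iff_deriv.mp hg).2

/-- The Hessian of a separable function is diagonal. -/
theorem sep_hess {f : Fin n → ℝ → ℝ} (hf : ∀ k, ContDiff ℝ ∞ (f k)) (x : EE n) :
    hess (fun x : EE n => ∑ k, f k (x k)) x =
      Matrix.diagonal (fun k => deriv (deriv (f k)) (x k)) := by
  have hfun : fderiv ℝ (fun x : EE n => ∑ k, f k (x k)) =
      fun y => ∑ k, (deriv (f k) (y k)) • (EuclideanSpace.proj k : EE n →L[ℝ] ℝ) := by
    funext y; exact sep_fderiv hf y
  have hk : ∀ k, HasFDerivAt (fun y : EE n => (deriv (f k) (y k)) • (EuclideanSpace.proj k : EE n →L[ℝ] ℝ))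
      ((deriv (deriv (f k)) (x k) • (EuclideanSpace.proj k : EE n →L[ℝ] ℝ)).smulRight
        (EuclideanSpace.proj k : EE n →L[ℝ] ℝ)) x := by
    intro k
    have h1 : HasDerivAt (deriv (f k)) (deriv (deriv (f k)) (x k)) (x k) :=
      ((deriv_contDiff (hf k)).differentiable (by simp) (x k)).hasDerivAt
    have h2 : HasFDerivAt (fun y : EE n => y k) (EuclideanSpace.proj k : EE n →L[ℝ] ℝ) x :=
      (EuclideanSpace.proj k : EE n →L[ℝ] ℝ).hasFDerivAt
    have h3 := h1.comp_hasFDerivAt x h2
    exact h3.smul_const (EuclideanSpace.proj k : EE n →L[ℝ] ℝ)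
  have hall := (HasFDerivAt.fun_sum (u := Finset.univ) fun k _ => hk k).fderiv
  ext i j
  simp only [hess, Matrix.of_apply, hfun]
  rw [hall]
  by_cases hij : i = j
  · subst hij
    simp [Matrix.diagonal]
  · simp [Matrix.diagonal, hij]

/-- A positive function on the line with nonpositive second derivative has zero derivative. -/
theorem concave_pos_deriv_zero {φ : ℝ → ℝ} (hφ : ContDiff ℝ ∞ φ) (hpos : ∀ t, 0 < φ t)
    (hc : ∀ t, deriv (deriv φ) t ≤ 0) (t₀ : ℝ) : deriv φ t₀ = 0 := by
  have hd1 : Differentiable ℝ φ := hφ.differentiable (by simp)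
  have hd2 : Differentiable ℝ (deriv φ) := (deriv_contDiff hφ).differentiable (by simp)
  have hanti : Antitone (deriv φ) := antitone_of_deriv_nonpos hd2 hc
  by_contra hm
  set m := deriv φ t₀ with hmdef
  set t : ℝ := t₀ - (φ t₀ + 1) / m with ht
  have htne : t ≠ t₀ := by
    intro h
    have h1 : (φ t₀ + 1) / m = 0 := by linarith
    have h2 : φ t₀ + 1 ≠ 0 := by linarith [hpos t₀]
    exact (div_ne_zero h2 hm) h1
  have hbound : φ t ≤ φ t₀ + m * (t - t₀) := by
    rcases lt_or_gt_of_ne htne with hlt | hgt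
    · obtain ⟨ξ, hξ, hs⟩ := exists_deriv_eq_slope φ hlt hd1.continuous.continuousOn
        hd1.differentiableOn
      have h1 : m ≤ deriv φ ξ := hanti hξ.2.le
      have h2 : 0 < t₀ - t := by linarith
      rw [eq_div_iff h2.ne'] at hs
      nlinarith
    · obtain ⟨ξ, hξ, hs⟩ := exists_deriv_eq_slope φ hgt hd1.continuous.continuousOn
        hd1.differentiableOn
      have h1 : deriv φ ξ ≤ m := hanti hξ.1.le
      have h2 : 0 < t - t₀ := by linarith
      rw [eq_div_iff h2.ne'] at hs
      nlinarith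
  have h3 : m * (t - t₀) = - (φ t₀ + 1) := by
    rw [ht]; field_simp; ring
  have := hpos t
  linarith

/-- A function with constant second derivative is a quadratic polynomial. -/
theorem quad_of_const {f : ℝ → ℝ} (hf : ContDiff ℝ ∞ f) {a : ℝ}
    (h : ∀ t, deriv (deriv f) t = a) (t : ℝ) :
    f t = a / 2 * t ^ 2 + deriv f 0 * t + f 0 := by
  have hd1 : Differentiable ℝ f := hf.differentiable (by simp)
  have hd2 : Differentiable ℝ (deriv f) := (deriv_contDiff hf).differentiable (by simp)
  have h1 : ∀ s, deriv f s = a * s + deriv f 0 := by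
    intro s
    have hdiff : Differentiable ℝ (fun s => deriv f s - a * s) :=
      hd2.sub ((differentiable_const a).mul differentiable_id)
    have hzero : ∀ s, deriv (fun s => deriv f s - a * s) s = 0 := by
      intro s
      have h2 : HasDerivAt (fun s => deriv f s - a * s) (deriv (deriv f) s - a * 1) s :=
        (hd2 s).hasDerivAt.sub ((hasDerivAt_id s).const_mul a)
      rw [h2.deriv, h s]; ring
    have := is_const_of_deriv_eq_zero hdiff hzero s 0
    simp only [mul_zero, sub_zero] at this
    linarith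
  have hdiff : Differentiable ℝ (fun s => f s - (a / 2 * s ^ 2 + deriv f 0 * s)) := by
    refine hd1.sub (Differentiable.add ?_ ?_)
    · exact (differentiable_const _).mul (differentiable_id.pow 2)
    · exact (differentiable_const _).mul differentiable_id
  have hzero : ∀ s, deriv (fun s => f s - (a / 2 * s ^ 2 + deriv f 0 * s)) s = 0 := by
    intro s
    have h2 : HasDerivAt (fun s : ℝ => s ^ 2) (2 * s) s := by
      simpa using hasDerivAt_pow 2 s
    have h3 : HasDerivAt (fun s => f s - (a / 2 * s ^ 2 + deriv f 0 * s))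
        (deriv f s - (a / 2 * (2 * s) + deriv f 0 * 1)) s :=
      (hd1 s).hasDerivAt.sub ((h2.const_mul (a / 2)).add ((hasDerivAt_id s).const_mul (deriv f 0)))
    rw [h3.deriv, h1 s]; ring
  have := is_const_of_deriv_eq_zero hdiff hzero t 0
  simp only [ne_eq, OfNat.ofNat_ne_zero, not_false_eq_true, zero_pow, mul_zero, add_zero,
    sub_zero] at this
  linarith

end Vale.Agent.P252h3
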