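import Vale.Agent.P252h3.Sep

open scoped ContDiff
open Filter Topology

namespace Vale.Agent.P252h3

variable {n : ℕ}

theorem hess_diag_line {w : EE n → ℝ} (hw : ContDiff ℝ ∞ w) (x : EE n) (i : Fin n) :
    hess w x i i = deriv (deriv (fun t : ℝ => w (x + t • EuclideanSpace.single i (1 : ℝ)))) 0 := by
  have h2 : ContDiffAt ℝ 2 w x := (hw.of_le (by norm_cast)).contDiffAt
  rw [Vale.Agent.P100h3.deriv_deriv_line h2]
  simp [hess]

theorem second_deriv_shift {φ : ℝ → ℝ} (hφ : ContDiff ℝ ∞ φ) (a C : ℝ) :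
    deriv (deriv (fun t : ℝ => φ (a + t) * C)) 0 = deriv (deriv φ) a * C := by
  have hd1 : Differentiable ℝ φ := hφ.differentiable (by simp)
  have hd2 : Differentiable ℝ (deriv φ) := (deriv_contDiff hφ).differentiable (by simp)
  have h1 : deriv (fun t : ℝ => φ (a + t) * C) = fun t => deriv φ (a + t) * C := by
    funext t
    exact ((HasDerivAt.comp_const_add a t (hd1 (a + t)).hasDerivAt).mul_const C).deriv
  rw [h1]
  have h2 := (HasDerivAt.comp_const_add a 0 (hd2 (a + 0)).hasDerivAt).mul_const C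
  have h3 := h2.deriv
  simpa using h3

/-- Separation of variables: each function `Ψ i` in `∑ i, Ψ i (x i) = 0` is constant. -/
theorem separation {Ψ : Fin n → ℝ → ℝ} (h : ∀ x : EE n, ∑ i, Ψ i (x i) = 0) (i : Fin n) (t : ℝ) :
    Ψ i t = Ψ i 0 := by
  have h1 := h (EuclideanSpace.single i t)
  have h2 := h 0
  rw [← Finset.add_sum_erase _ _ (Finset.mem_univ i)] at h1 h2
  have h3 : ∑ k ∈ Finset.univ.erase i, Ψ k ((EuclideanSpace.single i t : EE n) k) =
      ∑ k ∈ Finset.univ.erase i, Ψ k ((0 : EE n) k) := by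
    refine Finset.sum_congr rfl fun k hk => ?_
    have hne : k ≠ i := Finset.ne_of_mem_erase hk
    simp [hne]
  have h4 : (EuclideanSpace.single i t : EE n) i = t := by simp
  have h5 : (0 : EE n) i = 0 := rfl
  rw [h3, h4] at h1
  rw [h5] at h2
  linarith

theorem separable_sum_zero {f : Fin n → ℝ → ℝ} (hf : ∀ k, ContDiff ℝ ∞ (f k))
    (hpos : ∀ k t, 0 < deriv (deriv (f k)) t)
    (ham : IsAffineMaximal (fun x : EE n => ∑ k, f k (x k))) (x : EE n) :
    ∑ i, deriv (deriv (fun t => deriv (deriv (f i)) t ^ (-((n : ℝ) + 1) / ((n : ℝ) + 2)))) (x i) /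
        (deriv (deriv (f i)) (x i) *
          deriv (deriv (f i)) (x i) ^ (-((n : ℝ) + 1) / ((n : ℝ) + 2))) = 0 := by
  obtain ⟨e, he⟩ : ∃ e : ℝ, e = -((n : ℝ) + 1) / ((n : ℝ) + 2) := ⟨_, rfl⟩
  rw [← he]
  have hF2 : ∀ k, ContDiff ℝ ∞ (deriv (deriv (f k))) := fun k => deriv_contDiff (deriv_contDiff (hf k))
  have hφ : ∀ k, ContDiff ℝ ∞ (fun t => deriv (deriv (f k)) t ^ e) := fun k =>
    (hF2 k).rpow_const_of_ne fun t => (hpos k t).ne'
  have hφpos : ∀ k t, 0 < deriv (deriv (f k)) t ^ e := fun k t => Real.rpow_pos_of_pos (hpos k t) e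
  have hW : amW (fun x : EE n => ∑ k, f k (x k)) =
      fun y : EE n => ∏ k, deriv (deriv (f k)) (y k) ^ e := by
    funext y
    simp only [amW]
    rw [sep_hess hf y, Matrix.det_diagonal, ← he,
      Real.finsetProd_rpow _ _ (fun k _ => (hpos k (y k)).le)]
  have hwsmooth : ContDiff ℝ ∞ (fun y : EE n => ∏ k, deriv (deriv (f k)) (y k) ^ e) :=
    contDiff_prod fun k _ => (hφ k).comp (EuclideanSpace.proj k : EE n →L[ℝ] ℝ).contDiff
  obtain ⟨D, hD⟩ : ∃ D : Fin n → ℝ, D = fun k => deriv (deriv (f k)) (x k) := ⟨_, rfl⟩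
  have hDpos : ∀ k, 0 < D k := fun k => by rw [hD]; exact hpos k (x k)
  have hdiag : hess (fun x : EE n => ∑ k, f k (x k)) x = Matrix.diagonal D := by
    rw [sep_hess hf x, hD]
  have hinv : (Matrix.diagonal D)⁻¹ = Matrix.diagonal (fun k => (D k)⁻¹) := by
    apply Matrix.inv_eq_right_inv
    rw [Matrix.diagonal_mul_diagonal, ← Matrix.diagonal_one]
    congr 1
    funext k
    exact mul_inv_cancel₀ (hDpos k).ne'
  have hline : ∀ i, hess (amW (fun x : EE n => ∑ k, f k (x k))) x i i =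
      deriv (deriv (fun t => deriv (deriv (f i)) t ^ e)) (x i) *
        ∏ k ∈ Finset.univ.erase i, deriv (deriv (f k)) (x k) ^ e := by
    intro i
    rw [hW, hess_diag_line hwsmooth x i]
    have h1 : (fun t : ℝ => ∏ k, deriv (deriv (f k)) ((x + t • EuclideanSpace.single i (1 : ℝ) : EE n) k) ^ e) =
        fun t => (fun s => deriv (deriv (f i)) s ^ e) (x i + t) *
          ∏ k ∈ Finset.univ.erase i, deriv (deriv (f k)) (x k) ^ e := by
      funext t
      rw [← Finset.mul_prod_erase _ _ (Finset.mem_univ i)]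
      congr 1
      · simp
      · refine Finset.prod_congr rfl fun k hk => ?_
        have hne : k ≠ i := Finset.ne_of_mem_erase hk
        simp [hne]
    rw [h1]
    exact second_deriv_shift (hφ i) _ _
  have hmain := ham x
  rw [hdiag, Matrix.det_diagonal, hinv] at hmain
  have hinner : ∀ i, ∑ j, (∏ k, D k) * (Matrix.diagonal (fun k => (D k)⁻¹)) i j *
      hess (amW (fun x : EE n => ∑ k, f k (x k))) x i j =
      (∏ k, D k) * (D i)⁻¹ * hess (amW (fun x : EE n => ∑ k, f k (x k))) x i i := by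
    intro i
    rw [Finset.sum_eq_single i]
    · simp
    · intro j _ hj
      simp [hj.symm]
    · intro h
      exact absurd (Finset.mem_univ i) h
  simp only [hinner, hline] at hmain
  set Φ : ℝ := ∏ k, deriv (deriv (f k)) (x k) ^ e with hΦ
  have hΦpos : 0 < Φ := Finset.prod_pos fun k _ => hφpos k (x k)
  have hDprod : 0 < ∏ k, D k := Finset.prod_pos fun k _ => hDpos k
  have hterm : ∀ i, (∏ k, D k) * (D i)⁻¹ * (deriv (deriv (fun t => deriv (deriv (f i)) t ^ e)) (x i) *
        ∏ k ∈ Finset.univ.erase i, deriv (deriv (f k)) (x k) ^ e) =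
      ((∏ k, D k) * Φ) * (deriv (deriv (fun t => deriv (deriv (f i)) t ^ e)) (x i) /
        (deriv (deriv (f i)) (x i) * deriv (deriv (f i)) (x i) ^ e)) := by
    intro i
    have h1 : Φ = deriv (deriv (f i)) (x i) ^ e *
        ∏ k ∈ Finset.univ.erase i, deriv (deriv (f k)) (x k) ^ e :=
      (Finset.mul_prod_erase _ _ (Finset.mem_univ i)).symm
    rw [h1]
    have h2 := hφpos i (x i)
    have h3 := hDpos i
    have h4 : D i = deriv (deriv (f i)) (x i) := by rw [hD]
    rw [h4] at h3 ⊢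
    field_simp
  simp only [hterm] at hmain
  rw [← Finset.mul_sum] at hmain
  exact (mul_eq_zero.mp hmain).resolve_left (by positivity)

/-- Separable entire solutions of the affine maximal equation with positive definite Hessian
are elliptic paraboloids. -/
theorem separable_quadratic {f : Fin n → ℝ → ℝ} (hf : ∀ k, ContDiff ℝ ∞ (f k))
    (hpd : ∀ x, (hess (fun x : EE n => ∑ k, f k (x k)) x).PosDef)
    (ham : IsAffineMaximal (fun x : EE n => ∑ k, f k (x k))) :
    ∃ a b c : Fin n → ℝ, (∀ k, 0 < a k) ∧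
      ∀ k t, f k t = a k / 2 * t ^ 2 + b k * t + c k := by
  have hpos : ∀ k t, 0 < deriv (deriv (f k)) t := by
    intro k t
    have h1 := hpd (EuclideanSpace.single k t)
    rw [sep_hess hf, Matrix.posDef_diagonal_iff] at h1
    simpa using h1 k
  have hsum := separable_sum_zero hf hpos ham
  obtain ⟨e, he⟩ : ∃ e : ℝ, e = -((n : ℝ) + 1) / ((n : ℝ) + 2) := ⟨_, rfl⟩
  rw [← he] at hsum
  have hene : e ≠ 0 := by
    rw [he]
    have : (0 : ℝ) ≤ (n : ℝ) := Nat.cast_nonneg n
    have h1 : (0 : ℝ) < (n : ℝ) + 1 := by linarith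
    have h2 : (0 : ℝ) < (n : ℝ) + 2 := by linarith
    exact div_ne_zero (by linarith) h2.ne'
  set φ : Fin n → ℝ → ℝ := fun k t => deriv (deriv (f k)) t ^ e with hφdef
  set Ψ : Fin n → ℝ → ℝ := fun k t => deriv (deriv (φ k)) t / (deriv (deriv (f k)) t * φ k t) with hΨ
  have hsep : ∀ i t, Ψ i t = Ψ i 0 := fun i t => separation hsum i t
  have hF2 : ∀ k, ContDiff ℝ ∞ (deriv (deriv (f k))) := fun k => deriv_contDiff (deriv_contDiff (hf k))
  have hφs : ∀ k, ContDiff ℝ ∞ (φ k) := fun k =>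
    (hF2 k).rpow_const_of_ne fun t => (hpos k t).ne'
  have hφpos : ∀ k t, 0 < φ k t := fun k t => Real.rpow_pos_of_pos (hpos k t) e
  have hφ2 : ∀ i t, deriv (deriv (φ i)) t = Ψ i 0 * (deriv (deriv (f i)) t * φ i t) := by
    intro i t
    rw [← hsep i t]
    simp only [hΨ]
    have h1 := hpos i t
    have h2 := hφpos i t
    field_simp
  have hnonneg : ∀ i, 0 ≤ Ψ i 0 := by
    intro i
    by_contra hneg
    push Not at hneg
    have hle : ∀ t, deriv (deriv (φ i)) t ≤ 0 := by
      intro t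
      rw [hφ2]
      have h1 := hpos i t
      have h2 := hφpos i t
      exact mul_nonpos_of_nonpos_of_nonneg hneg.le (by positivity)
    have hzero : deriv (φ i) = fun _ => 0 := by
      funext t
      exact concave_pos_deriv_zero (hφs i) (hφpos i) hle t
    have h3 := hφ2 i 0
    rw [hzero] at h3
    simp only [deriv_const] at h3
    have h4 := hpos i 0
    have h5 := hφpos i 0
    have h6 : Ψ i 0 * (deriv (deriv (f i)) 0 * φ i 0) < 0 :=
      mul_neg_of_neg_of_pos hneg (by positivity)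
    linarith
  have hsum0 : ∑ i, Ψ i 0 = 0 := hsum 0
  have hzero : ∀ i, Ψ i 0 = 0 := fun i =>
    (Finset.sum_eq_zero_iff_of_nonneg fun i _ => hnonneg i).mp hsum0 i (Finset.mem_univ i)
  have hφ2zero : ∀ i t, deriv (deriv (φ i)) t = 0 := by
    intro i t
    rw [hφ2, hzero]; ring
  have hφ1zero : ∀ i t, deriv (φ i) t = 0 := fun i t =>
    concave_pos_deriv_zero (hφs i) (hφpos i) (fun s => (hφ2zero i s).le) t
  have hconst : ∀ i t, deriv (deriv (f i)) t = deriv (deriv (f i)) 0 := by
    intro i t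
    have h1 : φ i t = φ i 0 :=
      is_const_of_deriv_eq_zero ((hφs i).differentiable (by simp)) (hφ1zero i) t 0
    have h2 := Real.rpow_rpow_inv (hpos i t).le hene
    have h3 := Real.rpow_rpow_inv (hpos i 0).le hene
    simp only [hφdef] at h1
    rw [← h2, ← h3, h1]
  refine ⟨fun k => deriv (deriv (f k)) 0, fun k => deriv (f k) 0, fun k => f k 0,
    fun k => hpos k 0, fun k t => quad_of_const (hf k) (hconst k) t⟩

end Vale.Agent.P252h3
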